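import Mathlib

namespace Vale.Agent.Results.P038.AcyclicPlusOne

open Finset Relation
open scoped Classical

variable {V : Type*} [Fintype V]

/-- first out-neighbourhood -/
noncomputable def N1 (r : V → V → Prop) (v : V) : Finset V := univ.filter fun u => r v u

/-- second out-neighbourhood: vertices at directed distance exactly two -/
noncomputable def N2 (r : V → V → Prop) (v : V) : Finset V :=
  univ.filter fun w => w ≠ v ∧ ¬ r v w ∧ ∃ u, r v u ∧ r u w

/-- arcs of the subgraph induced on `S` -/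
def Ind (r : V → V → Prop) (S : Finset V) (a b : V) : Prop := a ∈ S ∧ b ∈ S ∧ r a b

/-- the subgraph induced on `S` has no directed cycle -/
def Acyc (r : V → V → Prop) (S : Finset V) : Prop := ∀ v, ¬ TransGen (Ind r S) v v

variable {r : V → V → Prop}

omit [Fintype V] in
theorem Acyc.mono {S T : Finset V} (h : Acyc r T) (hS : S ⊆ T) : Acyc r S := fun v hv =>
  h v (TransGen.mono (fun _ _ e => ⟨hS e.1, hS e.2.1, e.2.2⟩) _ _ hv)

omit [Fintype V] in
theorem Acyc.union {A S : Finset V} (hA : Acyc r A) (hS : Acyc r S)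
    (h : ∀ u ∈ S, ∀ w ∈ A, r u w → w ∈ S) : Acyc r (A ∪ S) := by
  have k : ∀ u w, Ind r (A ∪ S) u w → u ∈ S → w ∈ S := fun u w e hu =>
    (mem_union.1 e.2.1).elim (fun hw => h u hu w hw e.2.2) id
  have k' : ∀ u w, Ind r (A ∪ S) u w → w ∉ S → u ∉ S ∧ Ind r A u w := fun u w e hw =>
    ⟨fun hu => hw (k u w e hu), (mem_union.1 e.1).resolve_right fun hu => hw (k u w e hu),
      (mem_union.1 e.2.1).resolve_right hw, e.2.2⟩
  have h1 : ∀ a b, TransGen (Ind r (A ∪ S)) a b → a ∈ S → b ∈ S ∧ TransGen (Ind r S) a b := by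
    intro a b e ha
    induction e with
    | single e => exact ⟨k _ _ e ha, .single ⟨ha, k _ _ e ha, e.2.2⟩⟩
    | tail _ e ih => exact ⟨k _ _ e ih.1, ih.2.tail ⟨ih.1, k _ _ e ih.1, e.2.2⟩⟩
  have h2 : ∀ a b, TransGen (Ind r (A ∪ S)) a b → b ∉ S → TransGen (Ind r A) a b := by
    intro a b e
    induction e with
    | single e => exact fun hb => .single (k' _ _ e hb).2
    | tail _ e ih => exact fun hb => (ih (k' _ _ e hb).1).tail (k' _ _ e hb).2
  intro v hv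
  by_cases e : v ∈ S
  · exact hS v (h1 v v hv e).2
  · exact hA v (h2 v v hv e)

theorem Acyc.sink {S : Finset V} (h : Acyc r S) {u : V} (hu : u ∈ S) :
    ∃ g ∈ S, ReflTransGen (Ind r S) u g ∧ ∀ w ∈ S, ¬ r g w := by
  have : IsTrans V fun a b => TransGen (Ind r S) b a := ⟨fun _ _ _ a b => b.trans a⟩
  have : Std.Irrefl fun a b => TransGen (Ind r S) b a := ⟨h⟩
  obtain ⟨g, hg, hm⟩ := (Finite.wellFounded_of_trans_of_irrefl
    fun a b => TransGen (Ind r S) b a).has_min {w | ReflTransGen (Ind r S) u w} ⟨u, .refl⟩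
  have hgS : g ∈ S := by
    rcases ReflTransGen.cases_tail hg with e | ⟨_, _, e⟩
    exacts [e ▸ hu, e.2.1]
  exact ⟨g, hgS, hg, fun w hw e => hm w (ReflTransGen.tail hg ⟨hgS, hw, e⟩) (.single ⟨hgS, hw, e⟩)⟩

omit [Fintype V] in
theorem acyc_single {x : V} (h : ¬ r x x) : Acyc r {x} := fun v hv => by
  obtain ⟨b, e, _⟩ := TransGen.head'_iff.1 hv
  have := e.2.2
  rw [mem_singleton.1 e.1, mem_singleton.1 e.2.1] at this
  exact h this

theorem mem_N1 {v u : V} : u ∈ N1 r v ↔ r v u := by simp [N1]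

theorem out (ha : ∀ u v, r u v → ¬ r v u) {f u w : V} (hu : u ∈ N1 r f) (e : r u w) :
    w ∈ N1 r f ∨ w ∈ N2 r f := by
  by_cases h : r f w
  · exact Or.inl (mem_N1.2 h)
  · exact Or.inr (mem_filter.2 ⟨mem_univ _, fun e' => ha _ _ (mem_N1.1 hu) (e' ▸ e), h, u,
      mem_N1.1 hu, e⟩)

theorem not_N2 {f w : V} (h : w ∈ N1 r f) : w ∉ N2 r f := fun e =>
  (mem_filter.1 e).2.2.1 (mem_N1.1 h)

/-- `A` is a largest acyclic set and `f` has no out-neighbour in it -/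
def St (r : V → V → Prop) (A : Finset V) (f : V) : Prop :=
  Acyc r A ∧ (∀ B, Acyc r B → B.card ≤ A.card) ∧ ∀ w ∈ A, ¬ r f w

theorem St.swap (ha : ∀ u v, r u v → ¬ r v u) {A S : Finset V} {f : V} (h : St r A f)
    (hS : S ⊆ N1 r f) (hac : Acyc r S) : Acyc r (A \ N2 r f ∪ S) ∧
      (∀ u ∈ S, ∀ w ∈ A \ N2 r f, ¬ r u w) ∧
      (A \ N2 r f ∪ S).card + (A ∩ N2 r f).card = A.card + S.card := by
  have k : ∀ u ∈ S, ∀ w ∈ A \ N2 r f, ¬ r u w := fun u hu w hw e =>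
    (out ha (hS hu) e).elim (fun e' => h.2.2 w (mem_sdiff.1 hw).1 (mem_N1.1 e')) (mem_sdiff.1 hw).2
  refine ⟨(h.1.mono sdiff_subset).union hac fun u hu w hw e => absurd e (k u hu w hw), k, ?_⟩
  rw [card_union_of_disjoint (disjoint_left.2 fun w hw hw' =>
    h.2.2 w (mem_sdiff.1 hw).1 (mem_N1.1 (hS hw')))]
  have := card_sdiff_add_card_inter A (N2 r f)
  omega

theorem St.le (ha : ∀ u v, r u v → ¬ r v u) {A S : Finset V} {f : V} (h : St r A f)
    (hS : S ⊆ N1 r f) (hac : Acyc r S) : S.card ≤ (A ∩ N2 r f).card := by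
  obtain ⟨h1, _, h3⟩ := h.swap ha hS hac
  have := h.2.1 _ h1
  omega

theorem St.step (ha : ∀ u v, r u v → ¬ r v u) {A S : Finset V} {f g : V} (h : St r A f)
    (hS : S ⊆ N1 r f) (hac : Acyc r S) (hc : (N2 r f).card ≤ S.card) (hg : g ∈ S)
    (hs : ∀ w ∈ S, ¬ r g w) : Acyc r (N2 r f) ∧ St r (A \ N2 r f ∪ S) g := by
  obtain ⟨h1, h2, h3⟩ := h.swap ha hS hac
  have h4 := h.le ha hS hac
  have h5 : A ∩ N2 r f = N2 r f := eq_of_subset_of_card_le inter_subset_right (hc.trans h4)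
  refine ⟨h.1.mono (h5 ▸ inter_subset_left), h1, fun B hB => ?_, fun w hw =>
    (mem_union.1 hw).elim (h2 g hg w) (hs w)⟩
  have := h.2.1 B hB
  rw [h5] at h3
  omega

theorem ep {L : ℕ → Prop} (hd : ∀ j, L j → ¬ L (j + 1)) {c : ℕ}
    (h : ∀ k, L (c + 2 * k) ∨ L (c + 2 * k + 1)) : ∃ c, ∀ k, L (c + 2 * k) := by
  by_cases e : ∃ m, L (c + 2 * m + 1)
  · obtain ⟨m, hm⟩ := e
    refine ⟨c + 2 * m + 1, fun k => ?_⟩
    induction k with
    | zero => exact hm
    | succ k ih =>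
      have := (h (m + k + 1)).resolve_left (by
        rw [show c + 2 * (m + k + 1) = c + 2 * m + 1 + 2 * k + 1 by ring]; exact hd _ ih)
      rwa [show c + 2 * (m + k + 1) + 1 = c + 2 * m + 1 + 2 * (k + 1) by ring] at this
  · exact ⟨c, fun k => (h k).resolve_right fun e' => e ⟨k, e'⟩⟩

theorem main [Nonempty V] (hi : ∀ v, ¬ r v v) (ha : ∀ u v, r u v → ¬ r v u) :
    ∃ v, ∀ S ⊆ N1 r v, Acyc r S → min (N1 r v).card (S.card + 1) ≤ (N2 r v).card := by
  by_contra hcon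
  push Not at hcon
  have hP : {f | ∃ A, St r A f}.Nonempty := by
    obtain ⟨A, hA, hm⟩ := exists_max_image (univ.filter (Acyc r)) card
      ⟨{Classical.arbitrary V}, mem_filter.2 ⟨mem_univ _, acyc_single (hi _)⟩⟩
    have hA' := (mem_filter.1 hA).2
    have hm' := fun B hB => hm B (mem_filter.2 ⟨mem_univ _, hB⟩)
    obtain ⟨u, hu⟩ := card_pos.1 ((card_singleton _).ge.trans
      (hm' _ (acyc_single (hi (Classical.arbitrary V)))))
    obtain ⟨g, _, _, hg⟩ := hA'.sink hu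
    exact ⟨g, A, hA', hm', hg⟩
  obtain ⟨f1, hf1, hd⟩ := Set.exists_min_image _ (fun f => (N1 r f).card) (Set.toFinite _) hP
  obtain ⟨f0, ⟨⟨A0, hA0⟩, hf0⟩, hm⟩ := Set.exists_max_image
    {f | (∃ A, St r A f) ∧ (N1 r f).card = (N1 r f1).card} (fun f => (N2 r f).card)
    (Set.toFinite _) ⟨f1, hf1, rfl⟩
  obtain ⟨S0, hS0, hac0, hlt⟩ := hcon f0
  rw [lt_min_iff] at hlt
  set a := (N2 r f0).card with ha0
  have hS0a : S0.card = a :=
    le_antisymm ((hA0.le ha hS0 hac0).trans (card_le_card inter_subset_right)) (by omega)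
  set T := N1 r f0 \ S0 with hT
  have hTc : T.card + a = (N1 r f1).card := by rw [← hS0a, hT, card_sdiff_add_card_eq_card hS0, hf0]
  obtain ⟨x, hx⟩ : T.Nonempty := card_pos.1 (by omega)
  let Inv : Finset V × V → Prop := fun p => (∃ A, St r A p.2) ∧ N1 r p.2 = T ∪ p.1 ∧
    Disjoint T p.1 ∧ Acyc r p.1 ∧ p.1.card = a ∧ (N2 r p.2).card = a
  have step : ∀ s : {p // Inv p}, ∃ s' : {p // Inv p}, s'.1.1 = N2 r s.1.2 ∧ s'.1.2 ∈ s.1.1 ∧
      ∃ u ∈ s.1.1, r x u ∧ ReflTransGen (Ind r s.1.1) u s'.1.2 := by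
    rintro ⟨⟨L, f⟩, ⟨A, hA⟩, h1, h2, h3, h4, h5⟩
    simp only at hA h1 h2 h3 h4 h5 ⊢
    have hL : L ⊆ N1 r f := h1 ▸ subset_union_right
    have hTf : T ⊆ N1 r f := h1 ▸ subset_union_left
    obtain ⟨u, hu, hxu⟩ : ∃ u ∈ L, r x u := by
      by_contra hn
      push Not at hn
      have b1 := (hA.le ha (union_subset hL (singleton_subset_iff.2 (hTf hx)))
        (h3.union (acyc_single (hi x)) fun y hy w hw e =>
          absurd (mem_singleton.1 hy ▸ e) (hn w hw))).trans (card_le_card inter_subset_right)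
      rw [card_union_of_disjoint (disjoint_singleton_right.2 (disjoint_left.1 h2 hx)),
        card_singleton] at b1
      omega
    obtain ⟨g, hg, hr, hs⟩ := h3.sink hu
    obtain ⟨b1, b2⟩ := hA.step ha hL h3 (by omega) hg hs
    have b3 : N1 r g ⊆ T ∪ N2 r f := fun w hw => by
      rcases out ha (hL hg) (mem_N1.1 hw) with e | e
      · exact mem_union_left _ ((mem_union.1 (h1 ▸ e)).resolve_right fun e' => hs w e' (mem_N1.1 hw))
      · exact mem_union_right _ e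
    have b4 := hd g ⟨_, b2⟩
    have b5 := card_union_le T (N2 r f)
    have b6 := card_le_card b3
    have b7 : N1 r g = T ∪ N2 r f := eq_of_subset_of_card_le b3 (by omega)
    have b8 := hm g ⟨⟨_, b2⟩, by omega⟩
    have b9 := (b2.le ha (b7 ▸ subset_union_right) b1).trans (card_le_card inter_subset_right)
    exact ⟨⟨(N2 r f, g), ⟨_, b2⟩, b7, disjoint_left.2 fun w hw => not_N2 (hTf hw), b1, h5,
      by simp only at b8 ⊢; omega⟩, rfl, hg, u, hu, hxu, hr⟩
  choose nx h1 h2 h3 using step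
  let s : ℕ → {p // Inv p} := fun i => nx^[i] ⟨(S0, f0), ⟨_, hA0⟩, (sdiff_union_of_subset hS0).symm,
    sdiff_disjoint, hac0, hS0a, rfl⟩
  have hs : ∀ i, s (i + 1) = nx (s i) := fun i => Function.iterate_succ_apply' _ _ _
  have e1 : ∀ i, (s (i + 1)).1.1 = N2 r (s i).1.2 := fun i => by rw [hs, h1]
  have e2 : ∀ i, N1 r (s i).1.2 = T ∪ (s i).1.1 := fun i => (s i).2.2.1
  have dis : ∀ w j, w ∈ (s j).1.1 → w ∉ (s (j + 1)).1.1 := fun w j hw => by
    rw [e1]; exact not_N2 (e2 j ▸ mem_union_right _ hw)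
  have nxt : ∀ j u w, u ∈ T ∪ (s j).1.1 → r u w → w ∉ T → w ∈ (s j).1.1 ∨ w ∈ (s (j + 1)).1.1 :=
    fun j u w hu e hw => by
      rw [e1]
      exact (out ha (e2 j ▸ hu) e).imp_left fun e' => (mem_union.1 (e2 j ▸ e')).resolve_left hw
  have key : ∀ i, ∃ c, ∀ k, (s (i + 1)).1.2 ∈ (s (c + 2 * k)).1.1 := fun i => by
    obtain ⟨u, hu, hxu, hr⟩ := h3 (s i)
    have nT : ∀ w ∈ (s i).1.1, w ∉ T := fun w hw => disjoint_right.1 (s i).2.2.2.1 hw
    rw [hs]
    generalize (nx (s i)).1.2 = g at hr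
    induction hr with
    | refl => exact ep (dis u) (c := 0) fun k => nxt _ x u (mem_union_left _ hx) hxu (nT u hu)
    | tail _ e ih =>
      obtain ⟨c, hc⟩ := ih
      exact ep (dis _) fun k => nxt _ _ _ (mem_union_right _ (hc k)) e.2.2 (nT _ e.2.1)
  have : ∀ w : V, ∃ c, (∃ c, ∀ k, w ∈ (s (c + 2 * k)).1.1) → ∀ k, w ∈ (s (c + 2 * k)).1.1 :=
    fun w => by
      by_cases e : ∃ c, ∀ k, w ∈ (s (c + 2 * k)).1.1
      · exact e.imp fun c hc _ => hc
      · exact ⟨0, fun e' => absurd e' e⟩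
  choose c hc using this
  set M := univ.sup c with hM
  set g := (s (M + 1)).1.2 with hg
  have c1 : c g ≤ M := le_sup (f := c) (mem_univ g)
  have c2 : g ∉ (s (M + 1)).1.1 := dis g M (by rw [hg, hs]; exact h2 _)
  have c3 : g ∉ (s (M + 1 + 1)).1.1 := by rw [e1]; exact fun e => (mem_filter.1 e).2.1 rfl
  have c4 := hc g (key M) ((M + 2 - c g) / 2)
  rcases (by omega : c g + 2 * ((M + 2 - c g) / 2) = M + 1 ∨
    c g + 2 * ((M + 2 - c g) / 2) = M + 1 + 1) with e | e <;> rw [e] at c4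
  exacts [c2 c4, c3 c4]

theorem result {V : Type*} [Fintype V] [Nonempty V] (r : V → V → Prop) (hi : ∀ v, ¬ r v v)
    (ha : ∀ u v, r u v → ¬ r v u) :
    (∃ v, ∀ S ⊆ N1 r v, Acyc r S → min (N1 r v).card (S.card + 1) ≤ (N2 r v).card) ∧
      ((∀ v, ∃ x, Acyc r ((N1 r v).erase x)) → ∃ v, (N1 r v).card ≤ (N2 r v).card) := by
  refine ⟨main hi ha, fun h => (main hi ha).imp fun v hv => ?_⟩
  obtain ⟨x, hx⟩ := h v
  have := hv _ (erase_subset _ _) hx
  have := pred_card_le_card_erase (s := N1 r v) (a := x)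
  omega

end Vale.Agent.Results.P038.AcyclicPlusOne
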